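import Mathlib

/-!
# P331, rows Q1 and Q3 (helper568)

* `jc2`, `jc3`: joint convexity of `B^4 / C` (two and three points), Lean convention `x / 0 = 0`
  with the hypothesis `C = 0 → B = 0`.
* `scalarQ`: 777's scalar inequality (Q).
* `qpair`: the homogeneous pair inequality.
* `qstep`: the one-coordinate inequality of QJRL* (283 #19669 (1)), three labels.
-/

namespace Vale.Agent.P331.H568

/-- Cauchy–Schwarz in Titu form, two terms. -/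
theorem titu {x y p q : ℝ} (hp : 0 < p) (hq : 0 < q) :
    (x + y) ^ 2 / (p + q) ≤ x ^ 2 / p + y ^ 2 / q := by
  rw [div_add_div _ _ hp.ne' hq.ne', div_le_div_iff₀ (by positivity) (by positivity)]
  nlinarith [sq_nonneg (x * q - y * p), mul_pos hp hq, mul_nonneg hp.le (sq_nonneg (x * q - y * p))]

/-- Titu with nonnegative denominators and the convention `x / 0 = 0`. -/
theorem titu0 {x y p q : ℝ} (hp : 0 ≤ p) (hq : 0 ≤ q) (hx : p = 0 → x = 0) (hy : q = 0 → y = 0) :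
    (x + y) ^ 2 / (p + q) ≤ x ^ 2 / p + y ^ 2 / q := by
  rcases hp.eq_or_lt with h | h
  · have := hx h.symm
    subst this; rw [← h]; simp
  rcases hq.eq_or_lt with h' | h'
  · have := hy h'.symm
    subst this; rw [← h']; simp
  exact titu h h'

/-- Joint convexity of `B^4 / C`, unnormalised two point form. -/
theorem jc2' {w₁ w₂ b₁ b₂ x₁ x₂ : ℝ} (hw₁ : 0 ≤ w₁) (hw₂ : 0 ≤ w₂) (hw : w₁ + w₂ = 1)
    (hx₁ : 0 ≤ x₁) (hx₂ : 0 ≤ x₂) (h₁ : x₁ = 0 → b₁ = 0) (h₂ : x₂ = 0 → b₂ = 0) :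
    (w₁ * b₁ + w₂ * b₂) ^ 4 / (w₁ * x₁ + w₂ * x₂) ≤ w₁ * (b₁ ^ 4 / x₁) + w₂ * (b₂ ^ 4 / x₂) := by
  have e1 : (w₁ * b₁ + w₂ * b₂) ^ 2 ≤ w₁ * b₁ ^ 2 + w₂ * b₂ ^ 2 := by
    have : w₂ = 1 - w₁ := by linarith
    subst this
    nlinarith [mul_nonneg (mul_nonneg hw₁ hw₂) (sq_nonneg (b₁ - b₂))]
  have e2 : (w₁ * b₁ + w₂ * b₂) ^ 4 ≤ (w₁ * b₁ ^ 2 + w₂ * b₂ ^ 2) ^ 2 := by
    have : (w₁ * b₁ + w₂ * b₂) ^ 4 = ((w₁ * b₁ + w₂ * b₂) ^ 2) ^ 2 := by ring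
    rw [this]
    exact pow_le_pow_left₀ (sq_nonneg _) e1 2
  have hC : 0 ≤ w₁ * x₁ + w₂ * x₂ := by positivity
  calc (w₁ * b₁ + w₂ * b₂) ^ 4 / (w₁ * x₁ + w₂ * x₂)
      ≤ (w₁ * b₁ ^ 2 + w₂ * b₂ ^ 2) ^ 2 / (w₁ * x₁ + w₂ * x₂) :=
        div_le_div_of_nonneg_right e2 hC
    _ ≤ (w₁ * b₁ ^ 2) ^ 2 / (w₁ * x₁) + (w₂ * b₂ ^ 2) ^ 2 / (w₂ * x₂) := by
        apply titu0 (by positivity) (by positivity)
        · intro h
          rcases mul_eq_zero.mp h with h | h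
          · simp [h]
          · simp [h₁ h]
        · intro h
          rcases mul_eq_zero.mp h with h | h
          · simp [h]
          · simp [h₂ h]
    _ = w₁ * (b₁ ^ 4 / x₁) + w₂ * (b₂ ^ 4 / x₂) := by
        have k : ∀ w b x : ℝ, (w * b ^ 2) ^ 2 / (w * x) = w * (b ^ 4 / x) := by
          intro w b x
          by_cases hw0 : w = 0
          · simp [hw0]
          · rw [show (w * b ^ 2) ^ 2 = w * (w * b ^ 4) by ring, mul_div_mul_left _ _ hw0,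
              mul_div_assoc]
        rw [k, k]

/-- **Row Q3.** Joint convexity of `B^4 / C`, three point form. -/
theorem jc3 {w₁ w₂ w₃ b₁ b₂ b₃ x₁ x₂ x₃ : ℝ} (hw₁ : 0 ≤ w₁) (hw₂ : 0 ≤ w₂) (hw₃ : 0 ≤ w₃)
    (hw : w₁ + w₂ + w₃ = 1) (hx₁ : 0 ≤ x₁) (hx₂ : 0 ≤ x₂) (hx₃ : 0 ≤ x₃)
    (h₁ : x₁ = 0 → b₁ = 0) (h₂ : x₂ = 0 → b₂ = 0) (h₃ : x₃ = 0 → b₃ = 0) :
    (w₁ * b₁ + w₂ * b₂ + w₃ * b₃) ^ 4 / (w₁ * x₁ + w₂ * x₂ + w₃ * x₃)
      ≤ w₁ * (b₁ ^ 4 / x₁) + w₂ * (b₂ ^ 4 / x₂) + w₃ * (b₃ ^ 4 / x₃) := by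
  by_cases h0 : w₂ + w₃ = 0
  · have e2 : w₂ = 0 := by linarith
    have e3 : w₃ = 0 := by linarith
    have e1 : w₁ = 1 := by linarith
    subst e2; subst e3; subst e1; simp
  have hpos : 0 < w₂ + w₃ := lt_of_le_of_ne (by positivity) (Ne.symm h0)
  set W := w₂ + w₃ with hW
  have hne : W ≠ 0 := hpos.ne'
  set b' := (w₂ * b₂ + w₃ * b₃) / W with hb'
  set x' := (w₂ * x₂ + w₃ * x₃) / W with hx'
  have eb : W * b' = w₂ * b₂ + w₃ * b₃ := by rw [hb']; field_simp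
  have ex : W * x' = w₂ * x₂ + w₃ * x₃ := by rw [hx']; field_simp
  have hx'0 : 0 ≤ x' := by rw [hx']; positivity
  have hz : x' = 0 → b' = 0 := by
    intro h
    have h4 : w₂ * x₂ + w₃ * x₃ = 0 := by rw [← ex, h, mul_zero]
    have a2 : 0 ≤ w₂ * x₂ := by positivity
    have a3 : 0 ≤ w₃ * x₃ := by positivity
    have c2 : w₂ * x₂ = 0 := by linarith
    have c3 : w₃ * x₃ = 0 := by linarith
    have d2 : w₂ * b₂ = 0 := by
      rcases mul_eq_zero.mp c2 with h | h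
      · simp [h]
      · simp [h₂ h]
    have d3 : w₃ * b₃ = 0 := by
      rcases mul_eq_zero.mp c3 with h | h
      · simp [h]
      · simp [h₃ h]
    rw [hb', d2, d3]; simp
  have s1 := jc2' (w₁ := w₁) (w₂ := W) (b₁ := b₁) (b₂ := b') (x₁ := x₁) (x₂ := x') hw₁ hpos.le
    (by linarith) hx₁ hx'0 h₁ hz
  have s2 := jc2' (w₁ := w₂ / W) (w₂ := w₃ / W) (b₁ := b₂) (b₂ := b₃) (x₁ := x₂) (x₂ := x₃)
    (by positivity) (by positivity) (by rw [← add_div, ← hW, div_self hne]) hx₂ hx₃ h₂ h₃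
  have t1 : w₂ / W * b₂ + w₃ / W * b₃ = b' := by rw [hb']; field_simp
  have t2 : w₂ / W * x₂ + w₃ / W * x₃ = x' := by rw [hx']; field_simp
  rw [t1, t2] at s2
  have s3 := mul_le_mul_of_nonneg_left s2 hpos.le
  have t3 : W * (w₂ / W * (b₂ ^ 4 / x₂) + w₃ / W * (b₃ ^ 4 / x₃))
      = w₂ * (b₂ ^ 4 / x₂) + w₃ * (b₃ ^ 4 / x₃) := by
    field_simp
  rw [t3] at s3
  have g1 : w₁ * b₁ + w₂ * b₂ + w₃ * b₃ = w₁ * b₁ + W * b' := by rw [eb]; ring
  have g2 : w₁ * x₁ + w₂ * x₂ + w₃ * x₃ = w₁ * x₁ + W * x' := by rw [ex]; ring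
  rw [g1, g2]
  linarith

/-- Polynomial part of case 1. -/
theorem poly₁ {θ η β : ℝ} (hθ0 : 0 ≤ θ) (hθ : θ ≤ 1 / 2) (hη0 : 0 ≤ η) (hη : η ≤ 1 / 10)
    (hβ0 : 0 ≤ β) (hβ : β ≤ 1) :
    ((1 - θ * (1 - η) * β) ^ 2 - θ * (1 - β) ^ 2) ^ 2
      ≤ (1 - θ + η * θ * (1 - (1 - β) ^ 4)) * (1 - θ) := by
  have hq : 0 < 1 - θ := by linarith
  -- `σ = s / (θ β)`
  obtain ⟨σ, hσ⟩ : ∃ σ, σ = (1 - θ) * β - 2 * (1 - θ * β) * η - η ^ 2 * θ * β := ⟨_, rfl⟩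
  have es : (1 - θ * (1 - η) * β) ^ 2 - θ * (1 - β) ^ 2 = (1 - θ) - θ * β * σ := by
    rw [hσ]; ring
  rw [es]
  have hθβ0 : 0 ≤ θ * β := mul_nonneg hθ0 hβ0
  have hθβ : θ * β ≤ 1 / 2 := by
    calc θ * β ≤ θ * 1 := mul_le_mul_of_nonneg_left hβ hθ0
      _ ≤ 1 / 2 := by linarith
  have hη2 : η ^ 2 ≤ 1 / 100 := by
    calc η ^ 2 ≤ (1 / 10) ^ 2 := pow_le_pow_left₀ hη0 hη 2
      _ = 1 / 100 := by norm_num
  have p1 : (1 - θ) * β ≤ 1 - θ := by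
    calc (1 - θ) * β ≤ (1 - θ) * 1 := mul_le_mul_of_nonneg_left hβ hq.le
      _ = 1 - θ := mul_one _
  have p2 : 0 ≤ 2 * (1 - θ * β) * η := by
    apply mul_nonneg _ hη0; linarith
  have p3 : 0 ≤ η ^ 2 * θ * β := by positivity
  have p4 : 2 * (1 - θ * β) * η ≤ 1 / 5 := by
    calc 2 * (1 - θ * β) * η ≤ 2 * η := by
          apply mul_le_mul_of_nonneg_right _ hη0; linarith
      _ ≤ 1 / 5 := by linarith
  have p5 : η ^ 2 * θ * β ≤ 1 / 200 := by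
    calc η ^ 2 * θ * β = η ^ 2 * (θ * β) := by ring
      _ ≤ (1 / 100) * (1 / 2) := mul_le_mul hη2 hθβ hθβ0 (by norm_num)
      _ = 1 / 200 := by norm_num
  have p6 : 0 ≤ (1 - θ) * β := by positivity
  have σ1 : σ ≤ 1 - θ := by rw [hσ]; linarith
  have σ2 : -(1 - θ) ≤ σ := by rw [hσ]; linarith
  have σ3 : σ ^ 2 ≤ (1 - θ) ^ 2 := sq_le_sq' σ2 σ1
  have a1 : 0 ≤ 4 * η * θ - 2 * η ^ 2 * θ := by
    have h1 : 0 ≤ η * θ := by positivity
    have h2 : 4 * η * θ - 2 * η ^ 2 * θ = η * θ * (4 - 2 * η) := by ring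
    rw [h2]; apply mul_nonneg h1; linarith
  have a2 : 0 ≤ η * (4 * β - β ^ 2) := by
    have h2 : 4 * β - β ^ 2 = β * (4 - β) := by ring
    rw [h2]; apply mul_nonneg hη0; apply mul_nonneg hβ0; linarith
  have g1 : 2 * (1 - θ) - 3 / 5 ≤ 2 * (1 - θ) + 4 * η * θ - 2 * η ^ 2 * θ
      + η * (-6 + 4 * β - β ^ 2) := by
    have h3 : η * (-6 + 4 * β - β ^ 2) = η * (4 * β - β ^ 2) - 6 * η := by ring
    rw [h3]; linarith
  have g2 : (1 - θ) * (2 * (1 - θ) - 3 / 5) ≤ (1 - θ) * (2 * (1 - θ) + 4 * η * θ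
      - 2 * η ^ 2 * θ + η * (-6 + 4 * β - β ^ 2)) := mul_le_mul_of_nonneg_left g1 hq.le
  have g3 : θ * σ ^ 2 ≤ θ * (1 - θ) ^ 2 := mul_le_mul_of_nonneg_left σ3 hθ0
  have g4 : 0 ≤ (1 - θ) * (2 * (1 - θ) - 3 / 5) - θ * (1 - θ) ^ 2 := by
    have h4 : (1 - θ) * (2 * (1 - θ) - 3 / 5) - θ * (1 - θ) ^ 2
        = (1 - θ) * ((1 - θ) * (2 - θ) - 3 / 5) := by ring
    rw [h4]
    apply mul_nonneg hq.le
    have : (1 / 2 : ℝ) * (3 / 2) ≤ (1 - θ) * (2 - θ) :=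
      mul_le_mul (by linarith) (by linarith) (by norm_num) hq.le
    linarith
  have G : 0 ≤ (1 - θ) * (2 * (1 - θ) + 4 * η * θ - 2 * η ^ 2 * θ
      + η * (-6 + 4 * β - β ^ 2)) - θ * σ ^ 2 := by linarith
  have id1 : (1 - θ + η * θ * (1 - (1 - β) ^ 4)) * (1 - θ) - ((1 - θ) - θ * β * σ) ^ 2
      = θ * β ^ 2 * ((1 - θ) * (2 * (1 - θ) + 4 * η * θ - 2 * η ^ 2 * θ
      + η * (-6 + 4 * β - β ^ 2)) - θ * σ ^ 2) := by
    rw [hσ]; ring
  have : 0 ≤ θ * β ^ 2 * ((1 - θ) * (2 * (1 - θ) + 4 * η * θ - 2 * η ^ 2 * θ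
      + η * (-6 + 4 * β - β ^ 2)) - θ * σ ^ 2) := mul_nonneg (by positivity) G
  linarith

/-- Case `16 a ≥ 1` of (Q) (valid for all `a > 0`). -/
theorem scalarQ₁ {θ η b a : ℝ} (hθ0 : 0 ≤ θ) (hθ : θ ≤ 1 / 2) (hη0 : 0 ≤ η) (hη : η ≤ 1 / 10)
    (hb0 : 0 ≤ b) (hb : b ≤ 1) (ha : 0 < a) :
    (1 - θ * (1 - η) * (1 - b)) ^ 4 / (1 - θ * (1 - a)) + η * θ * b ^ 4
      ≤ 1 - θ + η * θ + θ * (b ^ 4 / a) := by
  rcases hθ0.eq_or_lt with h | hθp
  · rw [← h]; simp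
  have hq : 0 < 1 - θ := by linarith
  have f := poly₁ (β := 1 - b) hθ0 hθ hη0 hη (by linarith) (by linarith)
  have eb : (1 : ℝ) - (1 - b) = b := by ring
  rw [eb] at f
  generalize 1 - θ * (1 - η) * (1 - b) = u at f ⊢
  have key : (1 - θ * (1 - a)) = θ * a + (1 - θ) := by ring
  have t := titu (x := θ * b ^ 2) (y := u ^ 2 - θ * b ^ 2) (p := θ * a) (q := 1 - θ)
    (by positivity) hq
  have e1 : (θ * b ^ 2 + (u ^ 2 - θ * b ^ 2)) ^ 2 = u ^ 4 := by ring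
  have e2 : (θ * b ^ 2) ^ 2 / (θ * a) = θ * (b ^ 4 / a) := by
    rw [show (θ * b ^ 2) ^ 2 = θ * (θ * b ^ 4) by ring, mul_div_mul_left _ _ hθp.ne', mul_div_assoc]
  rw [e1, e2] at t
  rw [key]
  have f' : (u ^ 2 - θ * b ^ 2) ^ 2 / (1 - θ) ≤ 1 - θ + η * θ * (1 - b ^ 4) := by
    rw [div_le_iff₀ hq]; exact f
  have e3 : η * θ * (1 - b ^ 4) = η * θ - η * θ * b ^ 4 := by ring
  rw [e3] at f'
  linarith

/-- Case `16 a < 1` of (Q) (in fact the inequality without restriction on `a`, with the factor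
`1 / (λ a)`). -/
theorem scalarQ₂ {θ η b a : ℝ} (hθ0 : 0 ≤ θ) (hθ : θ ≤ 1 / 2) (hη0 : 0 ≤ η) (hη : η ≤ 1 / 10)
    (ha : 0 < a) (ha1 : 16 * a ≤ 1) :
    (1 - θ * (1 - η) * (1 - b)) ^ 4 / (1 - θ * (1 - a)) + η * θ * (b ^ 4 / (16 * a))
      ≤ 1 - θ + η * θ + θ * (b ^ 4 / a) := by
  set t := θ * (1 - η) with ht
  have ht0 : 0 ≤ t := by rw [ht]; apply mul_nonneg hθ0; linarith
  have ht1 : t ≤ 1 / 2 := by rw [ht]; nlinarith
  have hm : 0 < 1 - θ * (1 - a) := by nlinarith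
  have hm' : 1 - θ ≤ 1 - θ * (1 - a) := by nlinarith
  -- convexity bound
  have c1 : (1 - t * (1 - b)) ^ 4 ≤ (1 - t) ^ 4 / (1 - t / 2) ^ 3 + 8 * t * b ^ 4 := by
    have hp : 0 < 1 - t / 2 := by linarith
    have h := jc2' (w₁ := 1 - t / 2) (w₂ := t / 2) (b₁ := (1 - t) / (1 - t / 2)) (b₂ := 2 * b)
      (x₁ := 1) (x₂ := 1) hp.le (by linarith) (by ring) (by norm_num) (by norm_num)
      (by norm_num) (by norm_num)
    have e1 : (1 - t / 2) * ((1 - t) / (1 - t / 2)) + t / 2 * (2 * b) = 1 - t * (1 - b) := by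
      rw [mul_div_cancel₀ _ hp.ne']; ring
    have e2 : (1 - t / 2) * (1 : ℝ) + t / 2 * 1 = 1 := by ring
    rw [e1, e2] at h
    have e3 : (1 - t / 2) * (((1 - t) / (1 - t / 2)) ^ 4 / 1) = (1 - t) ^ 4 / (1 - t / 2) ^ 3 := by
      field_simp
    rw [e3] at h
    have e4 : t / 2 * ((2 * b) ^ 4 / 1) = 8 * t * b ^ 4 := by ring
    rw [e4] at h
    simpa using h
  have c2 : (1 - t) ^ 4 / (1 - t / 2) ^ 3 ≤ (1 - θ) * (1 - t) := by
    have hp : 0 < (1 - t / 2) ^ 3 := by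
      have : 0 < 1 - t / 2 := by linarith
      positivity
    rw [div_le_iff₀ hp]
    have k1 : (1 - t) ^ 2 ≤ (1 - θ) * (1 - t / 2) := by
      have : (1 - θ) * (1 - t / 2) - (1 - t) ^ 2
          = θ * (1 / 2 - 3 / 2 * η - θ * ((1 - η) * (1 / 2 - η))) := by rw [ht]; ring
      have h2 : 0 ≤ 1 / 2 - 3 / 2 * η - θ * ((1 - η) * (1 / 2 - η)) := by
        have a1 : (1 - η) * (1 / 2 - η) ≤ 1 / 2 := by nlinarith
        have a0 : 0 ≤ (1 - η) * (1 / 2 - η) := by nlinarith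
        nlinarith
      have := mul_nonneg hθ0 h2
      linarith
    have k2 : 1 - t ≤ (1 - t / 2) ^ 2 := by nlinarith [sq_nonneg t]
    have h1t : 0 ≤ 1 - t := by linarith
    have h1θ : 0 ≤ (1 - θ) * (1 - t / 2) := mul_nonneg (by linarith) (by linarith)
    calc (1 - t) ^ 4 = (1 - t) * ((1 - t) ^ 2 * (1 - t)) := by ring
      _ ≤ (1 - t) * (((1 - θ) * (1 - t / 2)) * (1 - t / 2) ^ 2) := by
          apply mul_le_mul_of_nonneg_left _ h1t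
          exact mul_le_mul k1 k2 h1t h1θ
      _ = (1 - θ) * (1 - t) * (1 - t / 2) ^ 3 := by ring
  -- final
  have hb4 : 0 ≤ b ^ 4 := by positivity
  have main : (1 - t * (1 - b)) ^ 4 ≤ (1 - θ + η * θ + (θ - η * θ / 16) * (b ^ 4 / a))
      * (1 - θ * (1 - a)) := by
    have e : 1 - θ + η * θ = 1 - t := by rw [ht]; ring
    rw [e, add_mul]
    have h1 : (1 - θ) * (1 - t) ≤ (1 - t) * (1 - θ * (1 - a)) := by
      have : 0 ≤ 1 - t := by linarith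
      nlinarith
    have h2 : 8 * t * b ^ 4 ≤ (θ - η * θ / 16) * (b ^ 4 / a) * (1 - θ * (1 - a)) := by
      have hq : (16 * (1 - θ) + θ) * a ≤ 1 - θ * (1 - a) := by nlinarith
      have hba : 0 ≤ b ^ 4 / a := by positivity
      have hc : 0 ≤ θ - η * θ / 16 := by nlinarith
      calc 8 * t * b ^ 4 ≤ (θ - η * θ / 16) * (16 * (1 - θ) + θ) * b ^ 4 := by
            apply mul_le_mul_of_nonneg_right _ hb4
            rw [ht]
            have : 17 / 2 ≤ 16 * (1 - θ) + θ := by linarith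
            nlinarith
        _ = (θ - η * θ / 16) * (b ^ 4 / a) * ((16 * (1 - θ) + θ) * a) := by
            field_simp
        _ ≤ _ := by
            apply mul_le_mul_of_nonneg_left hq
            positivity
    linarith
  have main' : (1 - t * (1 - b)) ^ 4 / (1 - θ * (1 - a))
      ≤ 1 - θ + η * θ + (θ - η * θ / 16) * (b ^ 4 / a) := by
    rw [div_le_iff₀ hm]; exact main
  have e5 : b ^ 4 / (16 * a) = (b ^ 4 / a) / 16 := by field_simp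
  rw [e5]
  linarith

/-- `B^4 / X ≤ B^4 / L` for a lower bound `L ≤ X`, with the convention `x / 0 = 0`. -/
theorem div_lb {B X L : ℝ} (hL : 0 ≤ L) (h : L ≤ X) (h0 : L = 0 → B = 0) :
    B ^ 4 / X ≤ B ^ 4 / L := by
  rcases hL.eq_or_lt with e | e
  · rw [h0 e.symm]; simp
  · exact div_le_div_of_nonneg_left (by positivity) e h

/-- **Row Q1.** 777's scalar inequality (Q). -/
theorem scalarQ {θ η b a lam : ℝ} (hθ0 : 0 ≤ θ) (hθ : θ ≤ 1 / 2) (hη0 : 0 ≤ η) (hη : η ≤ 1 / 10)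
    (hb0 : 0 ≤ b) (hb : b ≤ 1) (ha : 0 < a) (hl : 16 ≤ lam) :
    (1 - θ * (1 - η) * (1 - b)) ^ 4 / (1 - θ * (1 - a)) + η * θ * (b ^ 4 / min 1 (lam * a))
      ≤ 1 - θ + η * θ + θ * (b ^ 4 / a) := by
  have h1 : b ^ 4 / min 1 (lam * a) ≤ b ^ 4 / min 1 (16 * a) := by
    apply div_le_div_of_nonneg_left (by positivity)
    · exact lt_min one_pos (by positivity)
    · exact min_le_min le_rfl (mul_le_mul_of_nonneg_right hl ha.le)
  have h2 : η * θ * (b ^ 4 / min 1 (lam * a)) ≤ η * θ * (b ^ 4 / min 1 (16 * a)) :=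
    mul_le_mul_of_nonneg_left h1 (by positivity)
  rcases le_total 1 (16 * a) with h | h
  · rw [min_eq_left h] at h2
    have := scalarQ₁ hθ0 hθ hη0 hη hb0 hb ha
    simp only [div_one] at h2
    linarith
  · rw [min_eq_right h] at h2
    have := scalarQ₂ (b := b) hθ0 hθ hη0 hη ha h
    linarith

/-- The homogeneous pair inequality (labels `O`, `X`). -/
theorem qpair {θ ε bX bO xX xO lam : ℝ} (hθ0 : 0 ≤ θ) (hθ : θ ≤ 1 / 2) (hε0 : 0 ≤ ε)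
    (hε : ε ≤ θ / 10) (hl : 16 ≤ lam) (hbX : 0 ≤ bX) (hb : bX ≤ bO) (hxX : 0 ≤ xX) (hx : xX ≤ xO)
    (hX : xX = 0 → bX = 0) (hO : xO = 0 → bO = 0) :
    ε * (bX ^ 4 / min xO (lam * xX)) + ((θ - ε) * bX + (1 - θ + ε) * bO) ^ 4
        / (θ * xX + (1 - θ) * xO)
      ≤ θ * (bX ^ 4 / xX) + (1 - θ + ε) * (bO ^ 4 / xO) := by
  have hxO : 0 ≤ xO := hxX.trans hx
  have hbO : 0 ≤ bO := hbX.trans hb
  have hy : 0 ≤ 1 - θ + ε := by linarith
  rcases hxO.eq_or_lt with h | hxp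
  · have e1 : bO = 0 := hO h.symm
    have e2 : bX = 0 := le_antisymm (by linarith) hbX
    rw [e1, e2]; simp
  rcases hbO.eq_or_lt with h | hbp
  · have e2 : bX = 0 := le_antisymm (by linarith) hbX
    rw [← h, e2]; simp
  rcases hxX.eq_or_lt with h | hxXp
  · rw [hX h.symm, ← h]
    have e0 : ε * ((0 : ℝ) ^ 4 / min xO (lam * 0)) = 0 := by simp
    have e00 : θ * ((0 : ℝ) ^ 4 / 0) = 0 := by simp
    rw [e0, e00, zero_add, zero_add, mul_zero, zero_add, mul_zero, zero_add]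
    have hq : 0 < 1 - θ := by linarith
    rw [div_le_iff₀ (by positivity)]
    have k : (1 - θ + ε) ^ 3 ≤ 1 - θ := by
      have y1 : 1 - θ + ε ≤ 1 - 9 / 10 * θ := by linarith
      have y2 : (1 - θ + ε) ^ 2 ≤ (1 - 9 / 10 * θ) ^ 2 := pow_le_pow_left₀ hy y1 2
      have y3 : (1 - 9 / 10 * θ) ^ 2 ≤ 1 - θ := by nlinarith
      have y4 : (1 - θ + ε) ^ 3 = (1 - θ + ε) * (1 - θ + ε) ^ 2 := by ring
      rw [y4]
      calc (1 - θ + ε) * (1 - θ + ε) ^ 2 ≤ 1 * (1 - θ + ε) ^ 2 :=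
            mul_le_mul_of_nonneg_right (by linarith) (sq_nonneg _)
        _ ≤ 1 - θ := by linarith
    have e3 : (1 - θ + ε) * (bO ^ 4 / xO) * ((1 - θ) * xO)
        = (1 - θ + ε) * bO ^ 4 * (1 - θ) := by field_simp
    rw [e3]
    have e4 : ((1 - θ + ε) * bO) ^ 4 = (1 - θ + ε) * bO ^ 4 * (1 - θ + ε) ^ 3 := by ring
    rw [e4]
    exact mul_le_mul_of_nonneg_left k (by positivity)
  rcases hθ0.eq_or_lt with h | hθp
  · have : ε = 0 := le_antisymm (by rw [← h] at hε; linarith) hε0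
    rw [this, ← h]; simp
  -- scaling
  obtain ⟨b, rfl⟩ : ∃ b, bX = b * bO := ⟨bX / bO, by field_simp⟩
  obtain ⟨a, rfl⟩ : ∃ a, xX = a * xO := ⟨xX / xO, by field_simp⟩
  obtain ⟨η, rfl⟩ : ∃ η, ε = η * θ := ⟨ε / θ, by field_simp⟩
  have ha : 0 < a := by
    by_contra hc
    exact absurd hxXp (not_lt.mpr (mul_nonpos_of_nonpos_of_nonneg (not_lt.mp hc) hxp.le))
  have hb0 : 0 ≤ b := by
    by_contra hc
    exact absurd hbX (not_le.mpr (mul_neg_of_neg_of_pos (not_le.mp hc) hbp))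
  have hb1 : b ≤ 1 := by
    by_contra hc
    nlinarith [mul_pos (sub_pos.mpr (not_le.mp hc)) hbp]
  have hη0 : 0 ≤ η := by
    by_contra hc
    exact absurd hε0 (not_le.mpr (mul_neg_of_neg_of_pos (not_le.mp hc) hθp))
  have hη : η ≤ 1 / 10 := by
    by_contra hc
    nlinarith [mul_pos (sub_pos.mpr (not_le.mp hc)) hθp]
  have q := scalarQ hθ0 hθ hη0 hη hb0 hb1 ha hl
  have hm : min xO (lam * (a * xO)) = xO * min 1 (lam * a) := by
    rw [mul_min_of_nonneg _ _ hxp.le]; congr 1 <;> ring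
  rw [hm]
  have hmp : 0 < min 1 (lam * a) := lt_min one_pos (by positivity)
  have hd : 0 < θ * a + (1 - θ) := by
    have : 0 < θ * a := by positivity
    linarith
  have r1 : η * θ * ((b * bO) ^ 4 / (xO * min 1 (lam * a)))
      = bO ^ 4 / xO * (η * θ * (b ^ 4 / min 1 (lam * a))) := by
    field_simp
  have r2 : ((θ - η * θ) * (b * bO) + (1 - θ + η * θ) * bO) ^ 4 / (θ * (a * xO) + (1 - θ) * xO)
      = bO ^ 4 / xO * ((1 - θ * (1 - η) * (1 - b)) ^ 4 / (1 - θ * (1 - a))) := by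
    have z1 : (θ - η * θ) * (b * bO) + (1 - θ + η * θ) * bO
        = bO * (1 - θ * (1 - η) * (1 - b)) := by ring
    have z2 : θ * (a * xO) + (1 - θ) * xO = xO * (1 - θ * (1 - a)) := by ring
    rw [z1, z2, mul_pow, mul_div_mul_comm]
  have r3 : θ * ((b * bO) ^ 4 / (a * xO)) = bO ^ 4 / xO * (θ * (b ^ 4 / a)) := by
    field_simp
  rw [r1, r2, r3]
  have hK : 0 ≤ bO ^ 4 / xO := by positivity
  have := mul_le_mul_of_nonneg_left q hK
  nlinarith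

/-- **The one-coordinate inequality of QJRL*** (283 #19669 (1)), labels `X, R, O`.
`b`, `x` = the values of `B`, `Xi` of the three sections; kernel `N = (θ, δ)` with `s = 1 - θ - δ`,
kernel `N'' = (θ - ε, δ + ε)`. -/
theorem qstep {θ δ s ε bX bR bO xX xR xO lam : ℝ} (hθ0 : 0 ≤ θ) (hθ : θ ≤ δ) (hs : 0 ≤ s)
    (hsum : s + θ + δ = 1) (hε0 : 0 ≤ ε) (hε : ε ≤ θ / 10) (hl : 16 ≤ lam)
    (hbX : 0 ≤ bX) (hb : bX ≤ bO) (hxX : 0 ≤ xX) (hx : xX ≤ xO) (hxR : 0 ≤ xR)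
    (hX : xX = 0 → bX = 0) (hO : xO = 0 → bO = 0) (hR : xR = 0 → bR = 0) :
    ε * (bX ^ 4 / min xO (lam * xX))
        + (s * bR + (θ - ε) * bX + (δ + ε) * bO) ^ 4 / (s * xR + θ * xX + δ * xO)
      ≤ θ * (bX ^ 4 / xX) + s * (bR ^ 4 / xR) + (δ + ε) * (bO ^ 4 / xO) := by
  have hδ : 0 ≤ δ := hθ0.trans hθ
  by_cases h0 : θ + δ = 0
  · have e1 : θ = 0 := by linarith
    have e2 : δ = 0 := by linarith
    have e3 : ε = 0 := le_antisymm (by rw [e1] at hε; linarith) hε0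
    have e4 : s = 1 := by linarith
    rw [e1, e2, e3, e4]; simp
  have hW : 0 < θ + δ := lt_of_le_of_ne (by linarith) (Ne.symm h0)
  obtain ⟨W, hWd⟩ : ∃ W, W = θ + δ := ⟨_, rfl⟩
  rw [← hWd] at hW
  have hWne : W ≠ 0 := hW.ne'
  have hδp : 0 < δ := by
    rcases hδ.eq_or_lt with h | h
    · exfalso; apply hWne; rw [hWd]; linarith
    · exact h
  have hxO : 0 ≤ xO := hxX.trans hx
  set b' := ((θ - ε) * bX + (δ + ε) * bO) / W with hb'
  set x' := (θ * xX + δ * xO) / W with hx'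
  have eb : W * b' = (θ - ε) * bX + (δ + ε) * bO := by rw [hb']; field_simp
  have ex : W * x' = θ * xX + δ * xO := by rw [hx']; field_simp
  have hx'0 : 0 ≤ x' := by rw [hx']; positivity
  have hz : x' = 0 → b' = 0 := by
    intro h
    have h4 : θ * xX + δ * xO = 0 := by rw [← ex, h, mul_zero]
    have a2 : 0 ≤ θ * xX := by positivity
    have a3 : 0 ≤ δ * xO := by positivity
    have c3 : δ * xO = 0 := by linarith
    have c4 : xO = 0 := (mul_eq_zero.mp c3).resolve_left hδp.ne'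
    have c5 : xX = 0 := le_antisymm (by linarith) hxX
    rw [hb', hX c5, hO c4]; simp
  have s1 := jc2' (w₁ := s) (w₂ := W) (b₁ := bR) (b₂ := b') (x₁ := xR) (x₂ := x') hs hW.le
    (by linarith) hxR hx'0 hR hz
  have t1 : θ / W ≤ 1 / 2 := by
    rw [div_le_iff₀ hW]; linarith
  have t2 : ε / W ≤ θ / W / 10 := by
    rw [div_div, mul_comm W 10, ← div_div]
    exact div_le_div_of_nonneg_right hε hW.le
  have q := qpair (θ := θ / W) (ε := ε / W) (bX := bX) (bO := bO) (xX := xX) (xO := xO)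
    (lam := lam) (by positivity) t1 (by positivity) t2 hl hbX hb hxX hx hX hO
  have z1 : (θ / W - ε / W) * bX + (1 - θ / W + ε / W) * bO = b' := by
    rw [hb', hWd]; field_simp; ring
  have z2 : θ / W * xX + (1 - θ / W) * xO = x' := by
    rw [hx', hWd]; field_simp; ring
  rw [z1, z2] at q
  have q' := mul_le_mul_of_nonneg_left q hW.le
  have z3 : W * (ε / W * (bX ^ 4 / min xO (lam * xX)) + b' ^ 4 / x')
      = ε * (bX ^ 4 / min xO (lam * xX)) + W * (b' ^ 4 / x') := by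
    rw [mul_add, ← mul_assoc, mul_div_cancel₀ _ hWne]
  have z4 : W * (θ / W * (bX ^ 4 / xX) + (1 - θ / W + ε / W) * (bO ^ 4 / xO))
      = θ * (bX ^ 4 / xX) + (δ + ε) * (bO ^ 4 / xO) := by
    have : W * (1 - θ / W + ε / W) = δ + ε := by rw [hWd]; field_simp; ring
    rw [mul_add, ← mul_assoc, mul_div_cancel₀ _ hWne, ← mul_assoc, this]
  rw [z3, z4] at q'
  have g1 : s * bR + (θ - ε) * bX + (δ + ε) * bO = s * bR + W * b' := by rw [eb]; ring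
  have g2 : s * xR + θ * xX + δ * xO = s * xR + W * x' := by rw [ex]; ring
  rw [g1, g2]
  linarith

/-- The same inequality with the rates of the labels (`X`: `v = r * ε`, `R`: `r`, `O`: rest) on
the left and of the natural law (`X`: `r * θ`, `R`: `r * s`, `O`: rest) on the right. -/
theorem qcoord {r v θ δ s ε bX bR bO xX xR xO lam : ℝ} (hr : 0 ≤ r) (hv : v = r * ε)
    (hθ0 : 0 ≤ θ) (hθ : θ ≤ δ) (hs : 0 ≤ s)
    (hsum : s + θ + δ = 1) (hε0 : 0 ≤ ε) (hε : ε ≤ θ / 10) (hl : 16 ≤ lam)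
    (hbX : 0 ≤ bX) (hb : bX ≤ bO) (hxX : 0 ≤ xX) (hx : xX ≤ xO) (hxR : 0 ≤ xR)
    (hX : xX = 0 → bX = 0) (hO : xO = 0 → bO = 0) (hR : xR = 0 → bR = 0) :
    v * (bX ^ 4 / min xO (lam * xX))
        + r * ((s * bR + (θ - ε) * bX + (δ + ε) * bO) ^ 4 / (s * xR + θ * xX + δ * xO))
        + (1 - v - r) * (bO ^ 4 / xO)
      ≤ r * θ * (bX ^ 4 / xX) + r * s * (bR ^ 4 / xR) + (1 - r * θ - r * s) * (bO ^ 4 / xO) := by
  have q := mul_le_mul_of_nonneg_left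
    (qstep hθ0 hθ hs hsum hε0 hε hl hbX hb hxX hx hxR hX hO hR) hr
  rw [hv]
  have e : (1 - r * θ - r * s) = (1 - r * ε - r) + r * (δ + ε) := by
    have : δ = 1 - s - θ := by linarith
    rw [this]; ring
  rw [e]
  nlinarith

end Vale.Agent.P331.H568
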