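import Mathlib

/-!
# P331, line B, row A1 (helper568, second of 231)

The scalar inequality of the quenched JRL with exponents `(16, 7)` (199 #20033):
`u^16 / m^7 + η θ b^16 max(1, (λ a)^-7) ≤ 1 - θ + η θ + θ b^16 / a^7`,
`u = 1 - θ (1 - η) (1 - b)`, `m = 1 - θ (1 - a)`, for `θ ≤ 10^-4`, `η ≤ 1/40`,
`θ λ^7 ≥ 2 * 16^8`.
-/

namespace Vale.Agent.P331.H568

/-- `(1 - z)^n ≤ 1 - n z + n (n-1)/2 z^2` on `[0,1]`. -/
theorem one_sub_pow_le {z : ℝ} (hz0 : 0 ≤ z) (hz1 : z ≤ 1) (n : ℕ) :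
    (1 - z) ^ n ≤ 1 - n * z + n * (n - 1) / 2 * z ^ 2 := by
  induction n with
  | zero => simp
  | succ n ih =>
    have h0 : 0 ≤ 1 - z := by linarith
    have h1 := mul_le_mul_of_nonneg_left ih h0
    have hC : (0 : ℝ) ≤ n * (n - 1) / 2 * z ^ 3 := by
      rcases Nat.eq_zero_or_pos n with h | h
      · simp [h]
      · have : (1 : ℝ) ≤ n := by exact_mod_cast h
        have h2 : (0 : ℝ) ≤ n * (n - 1) / 2 := by
          apply div_nonneg _ (by norm_num)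
          apply mul_nonneg <;> linarith
        positivity
    rw [pow_succ, mul_comm]
    push_cast
    calc (1 - z) * (1 - z) ^ n ≤ (1 - z) * (1 - n * z + n * (n - 1) / 2 * z ^ 2) := h1
      _ = 1 - (n + 1) * z + (n + 1) * (n + 1 - 1) / 2 * z ^ 2 - n * (n - 1) / 2 * z ^ 3 := by ring
      _ ≤ _ := by linarith

theorem pow16_le {z : ℝ} (hz0 : 0 ≤ z) (hz1 : z ≤ 1) :
    (1 - z) ^ 16 ≤ 1 - 16 * z + 120 * z ^ 2 := by
  have := one_sub_pow_le hz0 hz1 16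
  norm_num at this ⊢
  linarith

/-- Young: `b^16 / a^7 ≥ 8 b^2 - 7 a`. -/
theorem young16 {b a : ℝ} (ha : 0 < a) : 8 * b ^ 2 - 7 * a ≤ b ^ 16 / a ^ 7 := by
  rw [le_div_iff₀ (by positivity)]
  obtain ⟨X, hX⟩ : ∃ X, X = b ^ 2 := ⟨_, rfl⟩
  have hX0 : 0 ≤ X := by rw [hX]; positivity
  have e : b ^ 16 = X ^ 8 := by rw [hX]; ring
  rw [e, ← hX]
  have id : X ^ 8 - (8 * X - 7 * a) * a ^ 7
      = (X - a) ^ 2 * (X ^ 6 + 2 * X ^ 5 * a + 3 * X ^ 4 * a ^ 2 + 4 * X ^ 3 * a ^ 3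
        + 5 * X ^ 2 * a ^ 4 + 6 * X * a ^ 5 + 7 * a ^ 6) := by ring
  have : 0 ≤ (X - a) ^ 2 * (X ^ 6 + 2 * X ^ 5 * a + 3 * X ^ 4 * a ^ 2 + 4 * X ^ 3 * a ^ 3
        + 5 * X ^ 2 * a ^ 4 + 6 * X * a ^ 5 + 7 * a ^ 6) := by positivity
  linarith

/-- `a^-7 ≥ 1 + 7 A + 28 A^2`, `a = 1 - A`. -/
theorem inv7_ge {A : ℝ} (hA0 : 0 ≤ A) (hA1 : A < 1) :
    1 + 7 * A + 28 * A ^ 2 ≤ 1 / (1 - A) ^ 7 := by
  have ha : 0 < 1 - A := by linarith
  rw [le_div_iff₀ (by positivity)]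
  have h1 : (1 + A + A ^ 2) * (1 - A) ≤ 1 := by
    have : (1 + A + A ^ 2) * (1 - A) = 1 - A ^ 3 := by ring
    rw [this]
    have : 0 ≤ A ^ 3 := by positivity
    linarith
  have h2 : ((1 + A + A ^ 2) * (1 - A)) ^ 7 ≤ 1 := by
    apply pow_le_one₀ _ h1
    positivity
  have h3 : 1 + 7 * A + 28 * A ^ 2 ≤ (1 + A + A ^ 2) ^ 7 := by
    have : (1 + A + A ^ 2) ^ 7 = 1 + 7 * A + 28 * A ^ 2 + (77 * A ^ 3 + 161 * A ^ 4 + 266 * A ^ 5
      + 357 * A ^ 6 + 393 * A ^ 7 + 357 * A ^ 8 + 266 * A ^ 9 + 161 * A ^ 10 + 77 * A ^ 11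
      + 28 * A ^ 12 + 7 * A ^ 13 + A ^ 14) := by ring
    rw [this]
    have : 0 ≤ 77 * A ^ 3 + 161 * A ^ 4 + 266 * A ^ 5
      + 357 * A ^ 6 + 393 * A ^ 7 + 357 * A ^ 8 + 266 * A ^ 9 + 161 * A ^ 10 + 77 * A ^ 11
      + 28 * A ^ 12 + 7 * A ^ 13 + A ^ 14 := by positivity
    linarith
  calc (1 + 7 * A + 28 * A ^ 2) * (1 - A) ^ 7 ≤ (1 + A + A ^ 2) ^ 7 * (1 - A) ^ 7 :=
        mul_le_mul_of_nonneg_right h3 (by positivity)
    _ = ((1 + A + A ^ 2) * (1 - A)) ^ 7 := by ring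
    _ ≤ 1 := h2

/-- `(1 - y)^-7 ≤ 1 + 7 y + 30 y^2` for small `y`. -/
theorem inv7_le {y : ℝ} (hy0 : 0 ≤ y) (hy1 : y ≤ 1 / 100) :
    1 ≤ (1 + 7 * y + 30 * y ^ 2) * (1 - y) ^ 7 := by
  have h1 : 1 - 7 * y + 21 * y ^ 2 - 35 * y ^ 3 ≤ (1 - y) ^ 7 := by
    have e : (1 - y) ^ 7 = 1 - 7 * y + 21 * y ^ 2 - 35 * y ^ 3
        + y ^ 4 * (35 - 21 * y + y ^ 2 * (7 - y)) := by ring
    rw [e]
    have : 0 ≤ y ^ 4 * (35 - 21 * y + y ^ 2 * (7 - y)) := by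
      apply mul_nonneg (by positivity)
      have : 0 ≤ y ^ 2 * (7 - y) := mul_nonneg (by positivity) (by linarith)
      linarith
    linarith
  have h2 : 0 ≤ 1 + 7 * y + 30 * y ^ 2 := by positivity
  have h3 := mul_le_mul_of_nonneg_left h1 h2
  have h4 : (1 + 7 * y + 30 * y ^ 2) * (1 - 7 * y + 21 * y ^ 2 - 35 * y ^ 3)
      = 1 + y ^ 2 * (2 - 98 * y + y ^ 2 * (385 - 1050 * y)) := by ring
  have h5 : 0 ≤ y ^ 2 * (2 - 98 * y + y ^ 2 * (385 - 1050 * y)) := by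
    apply mul_nonneg (by positivity)
    have : 0 ≤ y ^ 2 * (385 - 1050 * y) := mul_nonneg (by positivity) (by linarith)
    linarith
  linarith

/-- Upper bound of `u^16 / m^7`. -/
theorem um_le {z y : ℝ} (hz0 : 0 ≤ z) (hz1 : z ≤ 1 / 100) (hy0 : 0 ≤ y) (hy1 : y ≤ 1 / 100) :
    (1 - z) ^ 16 / (1 - y) ^ 7 ≤ 1 - 16 * z + 7 * y + 130 * z ^ 2 + 30 * y ^ 2 := by
  have hy : 0 < 1 - y := by linarith
  rw [div_le_iff₀ (by positivity)]
  have h1 := pow16_le hz0 (by linarith)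
  have h2 := inv7_le hy0 hy1
  have hp : 0 ≤ 1 - 16 * z + 120 * z ^ 2 := le_trans (by apply pow_nonneg; linarith) h1
  have h3 : (1 - 16 * z + 120 * z ^ 2) * 1 ≤ (1 - 16 * z + 120 * z ^ 2)
      * ((1 + 7 * y + 30 * y ^ 2) * (1 - y) ^ 7) := mul_le_mul_of_nonneg_left h2 hp
  have h4 : (1 - 16 * z + 120 * z ^ 2) * (1 + 7 * y + 30 * y ^ 2)
      ≤ 1 - 16 * z + 7 * y + 130 * z ^ 2 + 30 * y ^ 2 := by
    have e : 1 - 16 * z + 7 * y + 130 * z ^ 2 + 30 * y ^ 2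
        - (1 - 16 * z + 120 * z ^ 2) * (1 + 7 * y + 30 * y ^ 2)
        = z ^ 2 * (10 - 840 * y - 3600 * y ^ 2) + z * y * (112 + 480 * y) := by ring
    have k1 : 0 ≤ z ^ 2 * (10 - 840 * y - 3600 * y ^ 2) := by
      apply mul_nonneg (by positivity)
      have : y ^ 2 ≤ 1 / 10000 := by
        calc y ^ 2 ≤ (1 / 100) ^ 2 := pow_le_pow_left₀ hy0 hy1 2
          _ = 1 / 10000 := by norm_num
      linarith
    have k2 : 0 ≤ z * y * (112 + 480 * y) := by positivity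
    linarith
  calc (1 - z) ^ 16 ≤ (1 - 16 * z + 120 * z ^ 2) * 1 := by linarith
    _ ≤ (1 - 16 * z + 120 * z ^ 2) * ((1 + 7 * y + 30 * y ^ 2) * (1 - y) ^ 7) := h3
    _ = ((1 - 16 * z + 120 * z ^ 2) * (1 + 7 * y + 30 * y ^ 2)) * (1 - y) ^ 7 := by ring
    _ ≤ _ := mul_le_mul_of_nonneg_right h4 (by positivity)

/-- Case `λ a ≥ 1` (in fact every `a ∈ (0,1]`). -/
theorem a1_case1 {θ η b a : ℝ} (hθ0 : 0 ≤ θ) (hθ : θ ≤ 1 / 10000) (hη0 : 0 ≤ η)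
    (hη : η ≤ 1 / 40) (hb0 : 0 ≤ b) (hb : b ≤ 1) (ha : 0 < a) (ha1 : a ≤ 1) :
    (1 - θ * (1 - η) * (1 - b)) ^ 16 / (1 - θ * (1 - a)) ^ 7 + η * θ * b ^ 16
      ≤ 1 - θ + η * θ + θ * (b ^ 16 / a ^ 7) := by
  obtain ⟨d, rfl⟩ : ∃ d, b = 1 - d := ⟨1 - b, by ring⟩
  obtain ⟨A, rfl⟩ : ∃ A, a = 1 - A := ⟨1 - a, by ring⟩
  have hd0 : 0 ≤ d := by linarith
  have hd1 : d ≤ 1 := by linarith
  have hA0 : 0 ≤ A := by linarith
  have hA1 : A < 1 := by linarith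
  have hz0 : 0 ≤ θ * (1 - η) * d := by
    apply mul_nonneg (mul_nonneg hθ0 (by linarith)) hd0
  have hzx : θ * (1 - η) * d ≤ θ * d := by
    apply mul_le_mul_of_nonneg_right _ hd0
    nlinarith
  have hx1 : θ * d ≤ 1 / 10000 := by
    calc θ * d ≤ θ * 1 := mul_le_mul_of_nonneg_left hd1 hθ0
      _ ≤ 1 / 10000 := by linarith
  have hx0 : 0 ≤ θ * d := mul_nonneg hθ0 hd0
  have hy0 : 0 ≤ θ * A := mul_nonneg hθ0 hA0
  have hy1 : θ * A ≤ 1 / 10000 := by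
    calc θ * A ≤ θ * 1 := mul_le_mul_of_nonneg_left hA1.le hθ0
      _ ≤ 1 / 10000 := by linarith
  have U := um_le hz0 (by linarith : θ * (1 - η) * d ≤ 1 / 100) hy0
    (by linarith : θ * A ≤ 1 / 100)
  have e1 : 1 - (1 - d) = d := by ring
  have e2 : 1 - (1 - A) = A := by ring
  rw [e1, e2]
  have zz : (θ * (1 - η) * d) ^ 2 ≤ (θ * d) ^ 2 := pow_le_pow_left₀ hz0 hzx 2
  have B := pow16_le hd0 hd1
  have hηθ : 0 ≤ η * θ := mul_nonneg hη0 hθ0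
  have B' : η * θ * (1 - d) ^ 16 ≤ η * θ * (1 - 16 * d + 120 * d ^ 2) :=
    mul_le_mul_of_nonneg_left B hηθ
  -- it is enough to bound `(1-d)^16 / (1-A)^7` from below
  suffices h : 0 ≤ θ * ((1 - d) ^ 16 / (1 - A) ^ 7) - θ + 16 * (θ * d) - 7 * (θ * A)
      - 120 * (η * θ) * d ^ 2 - 130 * (θ * d) ^ 2 - 30 * (θ * A) ^ 2 by
    have e3 : η * θ * (1 - 16 * d + 120 * d ^ 2)
        = η * θ - 16 * (η * θ * d) + 120 * (η * θ) * d ^ 2 := by ring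
    have e4 : 16 * (θ * (1 - η) * d) = 16 * (θ * d) - 16 * (η * θ * d) := by ring
    linarith
  have hdsq : 0 ≤ d ^ 2 := sq_nonneg d
  have hAsq : 0 ≤ A ^ 2 := sq_nonneg A
  rcases le_total (32 * d) A with h | h
  · -- region 1
    have g1 : 1 - 16 * d ≤ (1 - d) ^ 16 := by
      have := one_add_mul_le_pow (a := -d) (by linarith) 16
      have e : (1 + -d) = 1 - d := by ring
      rw [e] at this
      norm_num at this
      linarith
    have g2 := inv7_ge hA0 hA1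
    have hpos : 0 ≤ 1 - 16 * d := by linarith
    have g3 : (1 - 16 * d) * (1 + 7 * A + 28 * A ^ 2) ≤ (1 - d) ^ 16 * (1 / (1 - A) ^ 7) :=
      mul_le_mul g1 g2 (by positivity) (by apply pow_nonneg; linarith)
    have g4 : (1 - d) ^ 16 * (1 / (1 - A) ^ 7) = (1 - d) ^ 16 / (1 - A) ^ 7 := by ring
    rw [g4] at g3
    have g5 : 1 - 16 * d + 7 * A + 10 * A ^ 2 ≤ (1 - 16 * d) * (1 + 7 * A + 28 * A ^ 2) := by
      have e : (1 - 16 * d) * (1 + 7 * A + 28 * A ^ 2)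
          = 1 - 16 * d + 7 * A + 28 * A ^ 2 - 16 * (d * A) * (7 + 28 * A) := by ring
      rw [e]
      have k1 : d * A ≤ A ^ 2 / 32 := by nlinarith
      have k0 : 0 ≤ d * A := mul_nonneg hd0 hA0
      have k2 : 16 * (d * A) * (7 + 28 * A) ≤ 16 * (A ^ 2 / 32) * 35 := by
        apply mul_le_mul
        · linarith
        · linarith
        · positivity
        · positivity
      linarith
    have g6 := mul_le_mul_of_nonneg_left (g5.trans g3) hθ0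
    have k3 : d ^ 2 ≤ A ^ 2 := pow_le_pow_left₀ hd0 (by linarith) 2
    have k4 : 120 * (η * θ) * d ^ 2 ≤ 3 * θ * A ^ 2 := by
      have : 120 * (η * θ) ≤ 3 * θ := by nlinarith
      exact mul_le_mul this k3 hdsq (by positivity)
    have k5 : 130 * (θ * d) ^ 2 ≤ θ * A ^ 2 := by
      have e : 130 * (θ * d) ^ 2 = (130 * θ) * (θ * d ^ 2) := by ring
      rw [e]
      calc (130 * θ) * (θ * d ^ 2) ≤ 1 * (θ * d ^ 2) := by
            apply mul_le_mul_of_nonneg_right _ (by positivity); linarith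
        _ ≤ θ * A ^ 2 := by rw [one_mul]; exact mul_le_mul_of_nonneg_left k3 hθ0
    have k6 : 30 * (θ * A) ^ 2 ≤ θ * A ^ 2 := by
      have e : 30 * (θ * A) ^ 2 = (30 * θ) * (θ * A ^ 2) := by ring
      rw [e]
      calc (30 * θ) * (θ * A ^ 2) ≤ 1 * (θ * A ^ 2) := by
            apply mul_le_mul_of_nonneg_right _ (by positivity); linarith
        _ = θ * A ^ 2 := one_mul _
    have k7 : 0 ≤ θ * A ^ 2 := by positivity
    have e7 : θ * (1 - 16 * d + 7 * A + 10 * A ^ 2)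
        = θ - 16 * (θ * d) + 7 * (θ * A) + 10 * (θ * A ^ 2) := by ring
    rw [e7] at g6
    linarith
  · -- region 2
    have g1 := young16 (b := 1 - d) (a := 1 - A) (by linarith)
    have g6 := mul_le_mul_of_nonneg_left g1 hθ0
    have e7 : θ * (8 * (1 - d) ^ 2 - 7 * (1 - A))
        = θ - 16 * (θ * d) + 7 * (θ * A) + 8 * (θ * d ^ 2) := by ring
    rw [e7] at g6
    have k3 : A ^ 2 ≤ 1024 * d ^ 2 := by
      calc A ^ 2 ≤ (32 * d) ^ 2 := pow_le_pow_left₀ hA0 h 2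
        _ = 1024 * d ^ 2 := by ring
    have k7 : 0 ≤ θ * d ^ 2 := by positivity
    have k4 : 120 * (η * θ) * d ^ 2 ≤ 3 * (θ * d ^ 2) := by
      have : 120 * (η * θ) ≤ 3 * θ := by nlinarith
      calc 120 * (η * θ) * d ^ 2 ≤ 3 * θ * d ^ 2 := mul_le_mul_of_nonneg_right this hdsq
        _ = _ := by ring
    have k5 : 130 * (θ * d) ^ 2 ≤ θ * d ^ 2 := by
      have e : 130 * (θ * d) ^ 2 = (130 * θ) * (θ * d ^ 2) := by ring
      rw [e]
      calc (130 * θ) * (θ * d ^ 2) ≤ 1 * (θ * d ^ 2) := by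
            apply mul_le_mul_of_nonneg_right _ k7; linarith
        _ = _ := one_mul _
    have k6 : 30 * (θ * A) ^ 2 ≤ 4 * (θ * d ^ 2) := by
      have e : 30 * (θ * A) ^ 2 = (30 * θ) * (θ * A ^ 2) := by ring
      rw [e]
      calc (30 * θ) * (θ * A ^ 2) ≤ (30 / 10000) * (θ * (1024 * d ^ 2)) := by
            apply mul_le_mul
            · linarith
            · exact mul_le_mul_of_nonneg_left k3 hθ0
            · positivity
            · norm_num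
        _ = 3072 / 1000 * (θ * d ^ 2) := by ring
        _ ≤ 4 * (θ * d ^ 2) := by
            apply mul_le_mul_of_nonneg_right _ k7; norm_num
    linarith

/-- Core of case 2 with the base `u` abstract. -/
theorem a1_core2 {θ η b a lam u : ℝ} (hθp : 0 < θ) (hθ : θ ≤ 1 / 10000) (hη0 : 0 ≤ η)
    (hη : η ≤ 1 / 40) (hb0 : 0 ≤ b) (ha : 0 < a) (ha1 : a ≤ 1) (hl1 : 1 ≤ lam)
    (hl : 2 * 16 ^ 8 ≤ θ * lam ^ 7) (hla : lam * a ≤ 1) (hu0 : 0 ≤ u) (hu1 : u ≤ 1)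
    (hu2 : b ≤ 1 / 4 → u ≤ 1 - 7 / 10 * θ) :
    u ^ 16 / (1 - θ * (1 - a)) ^ 7 + η * θ * (b ^ 16 / (lam * a) ^ 7)
      ≤ 1 - θ + η * θ + θ * (b ^ 16 / a ^ 7) := by
  have hlamp : 0 < lam := by linarith
  have hl7 : 0 < lam ^ 7 := by positivity
  have hq : 0 < 1 - θ := by linarith
  have hm : 1 - θ ≤ 1 - θ * (1 - a) := by nlinarith
  have hmp : 0 < 1 - θ * (1 - a) := by linarith
  have hB : 0 ≤ b ^ 16 / a ^ 7 := by positivity
  have e1 : b ^ 16 / (lam * a) ^ 7 ≤ b ^ 16 / a ^ 7 := by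
    apply div_le_div_of_nonneg_left (by positivity) (by positivity)
    apply pow_le_pow_left₀ ha.le
    nlinarith
  have e2 : η * θ * (b ^ 16 / (lam * a) ^ 7) ≤ η * θ * (b ^ 16 / a ^ 7) :=
    mul_le_mul_of_nonneg_left e1 (by positivity)
  have e3 : b ^ 16 * lam ^ 7 ≤ b ^ 16 / a ^ 7 := by
    rw [le_div_iff₀ (by positivity)]
    have : (lam * a) ^ 7 ≤ 1 := pow_le_one₀ (by positivity) hla
    have e : b ^ 16 * lam ^ 7 * a ^ 7 = b ^ 16 * (lam * a) ^ 7 := by rw [mul_pow]; ring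
    rw [e]
    calc b ^ 16 * (lam * a) ^ 7 ≤ b ^ 16 * 1 := mul_le_mul_of_nonneg_left this (by positivity)
      _ = b ^ 16 := mul_one _
  have f0 : u ^ 16 / (1 - θ * (1 - a)) ^ 7 ≤ u ^ 16 / (1 - θ) ^ 7 := by
    apply div_le_div_of_nonneg_left (by positivity) (by positivity)
    exact pow_le_pow_left₀ hq.le hm 7
  have hc : 0 ≤ (1 - η) * θ * (b ^ 16 / a ^ 7) := by
    apply mul_nonneg (mul_nonneg (by linarith) hθp.le) hB
  have split : η * θ * (b ^ 16 / a ^ 7) + (1 - η) * θ * (b ^ 16 / a ^ 7)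
      = θ * (b ^ 16 / a ^ 7) := by ring
  have hηθ : 0 ≤ η * θ := by positivity
  -- abstract the three big terms
  have k : u ^ 16 / (1 - θ) ^ 7 ≤ 1 - θ + (1 - η) * θ * (b ^ 16 / a ^ 7) := by
    rcases le_total b (1 / 4) with h | h
    · have k1 : u ^ 2 ≤ 1 - θ := by
        calc u ^ 2 ≤ (1 - 7 / 10 * θ) ^ 2 := pow_le_pow_left₀ hu0 (hu2 h) 2
          _ ≤ 1 - θ := by nlinarith
      have k2 : u ^ 16 ≤ (1 - θ) ^ 8 := by
        rw [show u ^ 16 = (u ^ 2) ^ 8 from pow_mul u 2 8]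
        exact pow_le_pow_left₀ (sq_nonneg _) k1 8
      have k3 : u ^ 16 / (1 - θ) ^ 7 ≤ 1 - θ := by
        rw [div_le_iff₀ (by positivity)]
        calc _ ≤ (1 - θ) ^ 8 := k2
          _ = (1 - θ) * (1 - θ) ^ 7 := pow_succ' _ 7
      exact k3.trans (le_add_of_nonneg_right hc)
    · have k1 : (1 / 16 ^ 8 : ℝ) ≤ b ^ 16 := by
        calc (1 / 16 ^ 8 : ℝ) = (1 / 4) ^ 16 := by norm_num
          _ ≤ b ^ 16 := pow_le_pow_left₀ (by norm_num) h 16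
      have k2 : (2 : ℝ) ≤ θ * (b ^ 16 * lam ^ 7) := by
        calc (2 : ℝ) = 1 / 16 ^ 8 * (2 * 16 ^ 8) := by norm_num
          _ ≤ b ^ 16 * (θ * lam ^ 7) := mul_le_mul k1 hl (by positivity) (by positivity)
          _ = _ := by ring
      have k3 : (2 : ℝ) ≤ θ * (b ^ 16 / a ^ 7) :=
        k2.trans (mul_le_mul_of_nonneg_left e3 hθp.le)
      have k4 : (39 / 20 : ℝ) ≤ (1 - η) * θ * (b ^ 16 / a ^ 7) := by
        calc (39 / 20 : ℝ) = 39 / 40 * 2 := by norm_num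
          _ ≤ (1 - η) * (θ * (b ^ 16 / a ^ 7)) :=
            mul_le_mul (by linarith) k3 (by norm_num) (by linarith)
          _ = _ := by ring
      have k5 : u ^ 16 / (1 - θ) ^ 7 ≤ 2 := by
        rw [div_le_iff₀ (by positivity)]
        have b1 : u ^ 16 ≤ 1 := pow_le_one₀ hu0 hu1
        have b2 : 1 - 7 * θ ≤ (1 - θ) ^ 7 := by
          have := one_add_mul_le_pow (a := -θ) (by linarith) 7
          have e : (1 + -θ) = 1 - θ := by ring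
          rw [e] at this
          norm_num at this
          linarith
        linarith
      linarith
  generalize u ^ 16 / (1 - θ * (1 - a)) ^ 7 = T1 at f0 ⊢
  generalize u ^ 16 / (1 - θ) ^ 7 = T2 at f0 k
  generalize b ^ 16 / (lam * a) ^ 7 = T3 at e2 ⊢
  generalize b ^ 16 / a ^ 7 = T4 at e2 split k ⊢
  linarith

/-- Case `λ a ≤ 1`. -/
theorem a1_case2 {θ η b a lam : ℝ} (hθ : θ ≤ 1 / 10000) (hη0 : 0 ≤ η)
    (hη : η ≤ 1 / 40) (hb0 : 0 ≤ b) (hb : b ≤ 1) (ha : 0 < a) (ha1 : a ≤ 1) (hl1 : 1 ≤ lam)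
    (hl : 2 * 16 ^ 8 ≤ θ * lam ^ 7) (hla : lam * a ≤ 1) :
    (1 - θ * (1 - η) * (1 - b)) ^ 16 / (1 - θ * (1 - a)) ^ 7
        + η * θ * (b ^ 16 / (lam * a) ^ 7)
      ≤ 1 - θ + η * θ + θ * (b ^ 16 / a ^ 7) := by
  have hl7 : 0 < lam ^ 7 := by positivity
  have hθp : 0 < θ := by
    by_contra hc
    have : θ * lam ^ 7 ≤ 0 := mul_nonpos_of_nonpos_of_nonneg (not_lt.mp hc) hl7.le
    norm_num at hl
    linarith
  apply a1_core2 hθp hθ hη0 hη hb0 ha ha1 hl1 hl hla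
  · have : θ * (1 - η) * (1 - b) ≤ 1 * 1 * 1 := by
      apply mul_le_mul
      · apply mul_le_mul <;> linarith
      · linarith
      · linarith
      · norm_num
    linarith
  · have : 0 ≤ θ * (1 - η) * (1 - b) := by
      apply mul_nonneg (mul_nonneg hθp.le (by linarith)) (by linarith)
    linarith
  · intro h
    have : (39 / 40 : ℝ) * (3 / 4) ≤ (1 - η) * (1 - b) :=
      mul_le_mul (by linarith) (by linarith) (by norm_num) (by linarith)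
    have := mul_le_mul_of_nonneg_left this hθp.le
    linarith

/-- **Row A1** (`min` form, literally 199's inequality with `max(1, (λ a)^-7) = 1/min(1, λ a)^7`). -/
theorem a1 {θ η b a lam : ℝ} (hθ : θ ≤ 1 / 10000) (hη0 : 0 ≤ η)
    (hη : η ≤ 1 / 40) (hb0 : 0 ≤ b) (hb : b ≤ 1) (ha : 0 < a) (ha1 : a ≤ 1) (hl1 : 1 ≤ lam)
    (hl : 2 * 16 ^ 8 ≤ θ * lam ^ 7) :
    (1 - θ * (1 - η) * (1 - b)) ^ 16 / (1 - θ * (1 - a)) ^ 7
        + η * θ * (b ^ 16 / (min 1 (lam * a)) ^ 7)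
      ≤ 1 - θ + η * θ + θ * (b ^ 16 / a ^ 7) := by
  have hl7 : 0 < lam ^ 7 := by positivity
  have hθp : 0 < θ := by
    by_contra hc
    have : θ * lam ^ 7 ≤ 0 := mul_nonpos_of_nonpos_of_nonneg (not_lt.mp hc) hl7.le
    norm_num at hl
    linarith
  rcases le_total 1 (lam * a) with h | h
  · rw [min_eq_left h, one_pow, div_one]
    exact a1_case1 hθp.le hθ hη0 hη hb0 hb ha ha1
  · rw [min_eq_right h]
    exact a1_case2 hθ hη0 hη hb0 hb ha ha1 hl1 hl h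

/-- **Row A1** (`max` form). -/
theorem a1_max {θ η b a lam : ℝ} (hθ : θ ≤ 1 / 10000) (hη0 : 0 ≤ η)
    (hη : η ≤ 1 / 40) (ha : 0 < a) (ha1 : a ≤ 1) (hb0 : 0 ≤ b) (hb : b ≤ 1) (hl1 : 1 ≤ lam)
    (hl : 2 * 16 ^ 8 ≤ θ * lam ^ 7) :
    (1 - θ * (1 - η) * (1 - b)) ^ 16 / (1 - θ * (1 - a)) ^ 7
        + η * θ * b ^ 16 * max 1 (1 / (lam * a) ^ 7)
      ≤ 1 - θ + η * θ + θ * b ^ 16 / a ^ 7 := by
  have h := a1 hθ hη0 hη hb0 hb ha ha1 hl1 hl
  have hlp : 0 < lam * a := by positivity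
  have e : η * θ * b ^ 16 * max 1 (1 / (lam * a) ^ 7)
      = η * θ * (b ^ 16 / (min 1 (lam * a)) ^ 7) := by
    rcases le_total 1 (lam * a) with h | h
    · rw [min_eq_left h, max_eq_left]
      · ring
      · rw [div_le_one (by positivity)]; exact one_le_pow₀ h
    · rw [min_eq_right h, max_eq_right]
      · ring
      · rw [le_div_iff₀ (by positivity), one_mul]; exact pow_le_one₀ hlp.le h
  rw [e, mul_div_assoc]
  exact h

end Vale.Agent.P331.H568
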