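import Vale.Agent.P331.F.Rows
import Vale.Agent.P331.H568.A1

/-!
# P331, line B: `theorem rowA1 : F.RowA1` (helper568)
-/

namespace Vale.Agent.P331.H568

/-- **Row A1 of `F/Rows.lean`.** -/
theorem rowA1 : Vale.Agent.P331.F.RowA1 := by
  refine ⟨1 / 20000, by norm_num, ?_⟩
  intro n hn hn1
  refine ⟨1 / 40, by norm_num, 1 + 2 * 16 ^ 8 / n, ?_, ?_⟩
  · have : 0 ≤ 2 * 16 ^ 8 / n := by positivity
    linarith
  intro θ hθ1 hθ2 η hη0 hη1 b a hb0 hb1 ha0 ha1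
  have hK : 0 ≤ 2 * 16 ^ 8 / n := by positivity
  have hl1 : 1 ≤ 1 + 2 * 16 ^ 8 / n := by linarith
  have hl2 : 1 + 2 * 16 ^ 8 / n ≤ (1 + 2 * 16 ^ 8 / n) ^ 7 := le_self_pow₀ hl1 (by norm_num)
  have hθ0 : 0 < θ := by linarith
  have hl : 2 * 16 ^ 8 ≤ θ * (1 + 2 * 16 ^ 8 / n) ^ 7 := by
    calc 2 * 16 ^ 8 = n * (2 * 16 ^ 8 / n) := by field_simp
      _ ≤ θ * (1 + 2 * 16 ^ 8 / n) ^ 7 := by
          apply mul_le_mul hθ1 _ hK hθ0.le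
          linarith
  exact a1_max (by linarith) hη0.le hη1 ha0 ha1 hb0 hb1 hl1 hl

end Vale.Agent.P331.H568
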